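import Vale.Agent.P210.R2.H53.RDefs
import Vale.Agent.P210.R2.H973.RicA

/-!
# Segment inequality: pointwise algebra

For a symmetric endomorphism `A` the quadratic form is bounded by the Hilbert-Schmidt norm.
-/

open scoped Manifold ContDiff Topology Bundle
open Set Metric Filter Bundle IsManifold MeasureTheory Manifold

set_option maxSynthPendingDepth 3

noncomputable section

namespace Vale.Agent.P210.R2.H999

open Vale.Agent.P210.R2.H53 Vale.Agent.P210.R2.H973

variable {E : Type} [NormedAddCommGroup E] [NormedSpace ℝ E] [FiniteDimensional ℝ E]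

theorem onb_repr {B : E →L[ℝ] E →L[ℝ] ℝ} {b : Module.Basis (Fin (Module.finrank ℝ E)) ℝ E}
    (hb : ONB B b) (i : Fin (Module.finrank ℝ E)) (v : E) : B (b i) v = b.repr v i := by
  conv_lhs => rw [← b.sum_repr v]
  rw [map_sum]
  simp only [map_smul, hb i _, smul_eq_mul, mul_ite, mul_one, mul_zero, Finset.sum_ite_eq,
    Finset.mem_univ, if_true]

theorem onb_inner {B : E →L[ℝ] E →L[ℝ] ℝ} {b : Module.Basis (Fin (Module.finrank ℝ E)) ℝ E}
    (hb : ONB B b) (u v : E) : B u v = ∑ i, B (b i) u * B (b i) v := by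
  conv_lhs => rw [← b.sum_repr u]
  rw [map_sum, ContinuousLinearMap.sum_apply]
  refine Finset.sum_congr rfl fun i _ => ?_
  rw [map_smul, smul_apply, smul_eq_mul, onb_repr hb i u]

/-- Cauchy-Schwarz -/
theorem bilin_cs {B : E →L[ℝ] E →L[ℝ] ℝ} (hsym : ∀ v w, B v w = B w v)
    (hpos : ∀ v, v ≠ 0 → 0 < B v v) (u v : E) : B u v ^ 2 ≤ B u u * B v v := by
  obtain ⟨b, hb⟩ := exists_onb B hsym hpos
  rw [onb_inner hb u v, ← onb_parseval hb u, ← onb_parseval hb v]
  exact Finset.sum_mul_sq_le_sq_mul_sq _ _ _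

theorem trace_comp_self {B : E →L[ℝ] E →L[ℝ] ℝ} (hsym : ∀ v w, B v w = B w v)
    {b : Module.Basis (Fin (Module.finrank ℝ E)) ℝ E}
    (hb : ONB B b) {A : E →L[ℝ] E} (hA : ∀ v w, B (A v) w = B (A w) v) :
    LinearMap.trace ℝ E ((A.comp A : E →L[ℝ] E) : E →ₗ[ℝ] E) = ∑ i, B (A (b i)) (A (b i)) := by
  rw [LinearMap.trace_eq_matrix_trace ℝ b, Matrix.trace]
  refine Finset.sum_congr rfl fun i _ => ?_
  rw [Matrix.diag_apply, LinearMap.toMatrix_apply, ← onb_repr hb]
  have h1 : ((A.comp A : E →L[ℝ] E) : E →ₗ[ℝ] E) (b i) = A (A (b i)) := rfl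
  rw [h1, hsym, hA]

/-- the quadratic form of a symmetric endomorphism is bounded by its Hilbert-Schmidt norm -/
theorem sq_quad_le {B : E →L[ℝ] E →L[ℝ] ℝ} (hsym : ∀ v w, B v w = B w v)
    (hpos : ∀ v, v ≠ 0 → 0 < B v v) {A : E →L[ℝ] E} (hA : ∀ v w, B (A v) w = B (A w) v) (v : E) :
    B (A v) v ^ 2 ≤
      LinearMap.trace ℝ E ((A.comp A : E →L[ℝ] E) : E →ₗ[ℝ] E) * B v v ^ 2 := by
  obtain ⟨b, hb⟩ := exists_onb B hsym hpos
  have h0 : ∀ w, 0 ≤ B w w := fun w => by
    rcases eq_or_ne w 0 with rfl | h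
    · simp
    · exact (hpos w h).le
  have h1 : B (A v) (A v) ≤ LinearMap.trace ℝ E ((A.comp A : E →L[ℝ] E) : E →ₗ[ℝ] E) * B v v := by
    rw [trace_comp_self hsym hb hA, ← onb_parseval hb (A v), Finset.sum_mul]
    refine Finset.sum_le_sum fun i _ => ?_
    rw [hsym (b i) (A v), hA v (b i)]
    exact bilin_cs hsym hpos _ _
  calc B (A v) v ^ 2 ≤ B (A v) (A v) * B v v := bilin_cs hsym hpos _ _
    _ ≤ LinearMap.trace ℝ E ((A.comp A : E →L[ℝ] E) : E →ₗ[ℝ] E) * B v v * B v v :=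
      mul_le_mul_of_nonneg_right h1 (h0 v)
    _ = _ := by ring

variable {G : E → E →L[ℝ] E →L[ℝ] ℝ} {U : Set E} {z : E} {φ : E → ℝ}

omit [FiniteDimensional ℝ E] in
theorem hessG_apply (G : E → E →L[ℝ] E →L[ℝ] ℝ) (φ : E → ℝ) (z v w : E) :
    hessG G φ z v w = fderiv ℝ (fderiv ℝ φ) z v w - fderiv ℝ φ z (chris G z v w) := by
  simp [hessG]

theorem hessG_symm (hG : LocalRiem G U) (hz : z ∈ U) (hφ : ContDiffAt ℝ 2 φ z) (v w : E) :
    hessG G φ z v w = hessG G φ z w v := by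
  rw [hessG_apply, hessG_apply, hG.chris_symm hz v w]
  congr 1
  exact (hφ.isSymmSndFDerivAt (by simp)).eq v w

theorem opG_spec (hG : LocalRiem G U) (hz : z ∈ U) (v w : E) :
    G z (opG G φ z v) w = hessG G φ z v w := by
  obtain ⟨T, hT⟩ := isInvertible_of_pos (G := G) (z := z) (hG.pos z hz)
  simp only [opG, ← hT, ContinuousLinearMap.inverse_equiv]
  simp

theorem gradG_spec (hG : LocalRiem G U) (hz : z ∈ U) (w : E) :
    G z (gradG G φ z) w = fderiv ℝ φ z w := by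
  obtain ⟨T, hT⟩ := isInvertible_of_pos (G := G) (z := z) (hG.pos z hz)
  simp only [gradG, ← hT, ContinuousLinearMap.inverse_equiv]
  simp

/-- the Hessian in a unit direction is bounded by its norm -/
theorem abs_hessG_le (hG : LocalRiem G U) (hz : z ∈ U) (hφ : ContDiffAt ℝ 2 φ z) {v : E}
    (hv : G z v v = 1) : |hessG G φ z v v| ≤ √(hsG G 0 φ z) := by
  apply Real.abs_le_sqrt
  have h1 := sq_quad_le (B := G z) (hG.symm z hz) (hG.pos z hz) (A := opG G φ z)
    (fun a b => by rw [opG_spec hG hz, opG_spec hG hz, hessG_symm hG hz hφ]) v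
  rw [opG_spec hG hz, hv] at h1
  simpa [hsG] using h1

/-- the gradient of a function with `|∇ρ| = 1` is the only unit vector on which `dρ` is `1` -/
theorem eq_gradG_of_unit (hG : LocalRiem G U) (hz : z ∈ U) {v : E}
    (hv : G z v v = 1) (h1 : fderiv ℝ φ z v = 1) (h2 : gamG G φ φ z = 1) : v = gradG G φ z := by
  by_contra hne
  have h3 := hG.pos z hz _ (sub_ne_zero.2 hne)
  have h4 : G z (v - gradG G φ z) (v - gradG G φ z) = 0 := by
    simp only [map_sub, sub_apply, gradG_spec hG hz]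
    rw [hG.symm z hz v (gradG G φ z), gradG_spec hG hz, hv, h1]
    rw [gamG] at h2
    rw [h2]
    ring
  linarith

end Vale.Agent.P210.R2.H999
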