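import Mathlib.Analysis.ODE.ExistUnique
import Vale.Agent.P210.R2.H999.SegA
import Vale.Agent.P210.R2.H973.Ricf

/-!
# Segment inequality: uniqueness of minimal geodesics
-/

open scoped Manifold ContDiff Topology Bundle
open Set Metric Filter Bundle IsManifold MeasureTheory Manifold

set_option maxSynthPendingDepth 3

noncomputable section

namespace Vale.Agent.P210.R2.H999

open Vale.Agent.P210.R2.H53 Vale.Agent.P210.R2.H973

variable {E : Type} [NormedAddCommGroup E] [NormedSpace ℝ E] [FiniteDimensional ℝ E]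
  {M : Type} [MetricSpace M] [ChartedSpace E M]
  [RiemannianBundle (fun x : M => TangentSpace 𝓘(ℝ, E) x)]
  [IsManifold 𝓘(ℝ, E) ∞ M]
  [IsContMDiffRiemannianBundle 𝓘(ℝ, E) ∞ E (fun x : M => TangentSpace 𝓘(ℝ, E) x)]

/-- uniqueness of geodesics in a chart -/
theorem geoAt_unique {e : OpenPartialHomeomorph M E} (he : e ∈ maximalAtlas 𝓘(ℝ, E) ∞ M)
    {w₁ w₁' w₂ w₂' : ℝ → E} {s : ℝ} (h₁ : ∀ᶠ t in 𝓝 s, GeoAt e w₁ w₁' t)
    (h₂ : ∀ᶠ t in 𝓝 s, GeoAt e w₂ w₂' t) (h0 : w₁ s = w₂ s) (h0' : w₁' s = w₂' s) :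
    w₁ =ᶠ[𝓝 s] w₂ := by
  set F : E × E → E × E := fun y => (y.2, -(chris (chartG e) y.1 y.2 y.2)) with hF
  have hz : w₁ s ∈ e.target := h₁.self_of_nhds.2.2.1
  have hcd : ContDiffAt ℝ 1 F (w₁ s, w₁' s) := by
    have h3 : ContDiffAt ℝ 1 (chris (chartG e)) (w₁ s) :=
      (((localRiem_chartG he).contDiffOn_chris).contDiffAt
        (e.open_target.mem_nhds hz)).of_le (by simp)
    have h4 : ContDiffAt ℝ 1 (fun y : E × E => chris (chartG e) y.1) (w₁ s, w₁' s) :=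
      ContDiffAt.comp (g := chris (chartG e)) (f := Prod.fst) (w₁ s, w₁' s) h3 contDiffAt_fst
    exact contDiffAt_snd.prodMk ((h4.clm_apply contDiffAt_snd).clm_apply contDiffAt_snd).neg
  obtain ⟨K, t, ht, hK⟩ := hcd.exists_lipschitzOnWith
  have hc₁ : ContinuousAt (fun r => (w₁ r, w₁' r)) s :=
    (h₁.self_of_nhds.1.continuousAt).prodMk (h₁.self_of_nhds.2.1.continuousAt)
  have hc₂ : ContinuousAt (fun r => (w₂ r, w₂' r)) s :=
    (h₂.self_of_nhds.1.continuousAt).prodMk (h₂.self_of_nhds.2.1.continuousAt)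
  have key := ODE_solution_unique_of_eventually (v := fun _ => F) (s := fun _ => t) (K := K)
    (f := fun r => (w₁ r, w₁' r)) (g := fun r => (w₂ r, w₂' r)) (t₀ := s)
    (Eventually.of_forall fun _ => hK)
    (by
      filter_upwards [h₁, hc₁.preimage_mem_nhds ht] with r hr hr'
      exact ⟨hr.1.prodMk hr.2.1, hr'⟩)
    (by
      filter_upwards [h₂, hc₂.preimage_mem_nhds (by rw [← h0, ← h0']; exact ht)] with r hr hr'
      exact ⟨hr.1.prodMk hr.2.1, hr'⟩)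
    (by simp [h0, h0'])
  filter_upwards [key] with r hr
  exact congrArg Prod.fst hr

/-- local uniqueness of minimal geodesics with the same velocity -/
theorem minGeo_local_unique (h2 : Geo2 E M) {c₁ c₂ : ℝ → M} {d a : ℝ} (hd : 0 < d)
    (hc₁ : MinGeo c₁ 0 d) (hc₂ : MinGeo c₂ 0 d) (ha : a ∈ Icc 0 d) (hz : c₁ a = c₂ a)
    {S : Set ℝ} (hS : UniqueDiffWithinAt ℝ S a) (hS' : S ⊆ Icc 0 d)
    {e : OpenPartialHomeomorph M E} (he : e ∈ maximalAtlas 𝓘(ℝ, E) ∞ M) (hx : c₁ a ∈ e.source)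
    {v : E} (hv₁ : HasDerivWithinAt (fun t => e (c₁ t)) v S a)
    (hv₂ : HasDerivWithinAt (fun t => e (c₂ t)) v S a) :
    ∀ᶠ t in 𝓝 a, t ∈ Icc 0 d → c₁ t = c₂ t := by
  obtain ⟨δ₁, hδ₁, w₁, w₁', hw₁, hcw₁⟩ := h2 c₁ 0 d a hd hc₁ ha e he hx
  obtain ⟨δ₂, hδ₂, w₂, w₂', hw₂, hcw₂⟩ := h2 c₂ 0 d a hd hc₂ ha e he (by rw [← hz]; exact hx)
  have hev : ∀ {δ : ℝ}, 0 < δ → ∀ᶠ t in 𝓝 a, |t - a| < δ := fun {δ} hδ => by
    filter_upwards [Metric.ball_mem_nhds a hδ] with t ht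
    rwa [mem_ball, Real.dist_eq] at ht
  have e₁ : w₁' a = v := by
    refine UniqueDiffWithinAt.eq_deriv S hS
      (hw₁ a (by simpa using hδ₁)).1.hasDerivWithinAt (hv₁.congr_of_eventuallyEq ?_
        ((hcw₁ a ha (by simpa using hδ₁)).2).symm)
    filter_upwards [nhdsWithin_le_nhds (hev hδ₁), self_mem_nhdsWithin] with t ht ht'
    exact ((hcw₁ t (hS' ht') ht).2).symm
  have e₂ : w₂' a = v := by
    refine UniqueDiffWithinAt.eq_deriv S hS
      (hw₂ a (by simpa using hδ₂)).1.hasDerivWithinAt (hv₂.congr_of_eventuallyEq ?_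
        ((hcw₂ a ha (by simpa using hδ₂)).2).symm)
    filter_upwards [nhdsWithin_le_nhds (hev hδ₂), self_mem_nhdsWithin] with t ht ht'
    exact ((hcw₂ t (hS' ht') ht).2).symm
  have h0 : w₁ a = w₂ a := by
    rw [← (hcw₁ a ha (by simpa using hδ₁)).2, ← (hcw₂ a ha (by simpa using hδ₂)).2, hz]
  have key := geoAt_unique he (s := a) (w₁ := w₁) (w₂ := w₂) (w₁' := w₁') (w₂' := w₂')
    ((hev hδ₁).mono fun t ht => hw₁ t ht) ((hev hδ₂).mono fun t ht => hw₂ t ht) h0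
    (e₁.trans e₂.symm)
  filter_upwards [key, hev hδ₁, hev hδ₂] with t h1 h3 h4 ht
  have k1 := hcw₁ t ht h3
  have k2 := hcw₂ t ht h4
  rw [← e.left_inv k1.1, ← e.left_inv k2.1, k1.2, k2.2, h1]

/-- uniqueness of minimal geodesics with the same velocity at the end point -/
theorem minGeo_unique (h2 : Geo2 E M) {c₁ c₂ : ℝ → M} {d : ℝ} (hd : 0 < d)
    (hc₁ : MinGeo c₁ 0 d) (hc₂ : MinGeo c₂ 0 d) (hz : c₁ d = c₂ d)
    {e : OpenPartialHomeomorph M E} (he : e ∈ maximalAtlas 𝓘(ℝ, E) ∞ M) (hx : c₁ d ∈ e.source)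
    {v : E} (hv₁ : HasDerivWithinAt (fun t => e (c₁ t)) v (Icc 0 d) d)
    (hv₂ : HasDerivWithinAt (fun t => e (c₂ t)) v (Icc 0 d) d) :
    ∀ t ∈ Icc 0 d, c₁ t = c₂ t := by
  set A : Set ℝ := {s | s ∈ Icc 0 d ∧ ∀ t ∈ Icc s d, c₁ t = c₂ t} with hA
  have hdA : d ∈ A := ⟨⟨hd.le, le_rfl⟩, fun t ht => by
    rw [le_antisymm ht.2 ht.1]; exact hz⟩
  have hbdd : BddBelow A := ⟨0, fun s hs => hs.1.1⟩
  set a := sInf A with ha
  have ha0 : 0 ≤ a := le_csInf ⟨d, hdA⟩ fun s hs => hs.1.1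
  have had : a ≤ d := csInf_le hbdd hdA
  have h3 : ∀ t ∈ Ioc a d, c₁ t = c₂ t := by
    intro t ht
    obtain ⟨s, hs, hst⟩ := exists_lt_of_csInf_lt ⟨d, hdA⟩ ht.1
    exact hs.2 t ⟨hst.le, ht.2⟩
  have haI : a ∈ Icc 0 d := ⟨ha0, had⟩
  have h4 : c₁ a = c₂ a := by
    rcases had.eq_or_lt with h | h
    · rw [h]; exact hz
    · have k1 : Tendsto c₁ (𝓝[Ioc a d] a) (𝓝 (c₁ a)) :=
        ((minGeo_continuousOn hc₁) a haI).mono_left (nhdsWithin_mono _ fun t ht =>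
          ⟨ha0.trans ht.1.le, ht.2⟩)
      have k2 : Tendsto c₂ (𝓝[Ioc a d] a) (𝓝 (c₂ a)) :=
        ((minGeo_continuousOn hc₂) a haI).mono_left (nhdsWithin_mono _ fun t ht =>
          ⟨ha0.trans ht.1.le, ht.2⟩)
      have : (𝓝[Ioc a d] a).NeBot := by
        rw [nhdsWithin_Ioc_eq_nhdsGT h]; infer_instance
      refine tendsto_nhds_unique (k1.congr' ?_) k2
      filter_upwards [self_mem_nhdsWithin] with t ht
      exact h3 t ht
  have haA : ∀ t ∈ Icc a d, c₁ t = c₂ t := by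
    intro t ht
    rcases ht.1.eq_or_lt with h | h
    · rw [← h]; exact h4
    · exact h3 t ⟨h, ht.2⟩
  rcases ha0.eq_or_lt with h0 | h0
  · rw [← h0] at haA
    exact haA
  exfalso
  have hloc : ∀ᶠ t in 𝓝 a, t ∈ Icc 0 d → c₁ t = c₂ t := by
    rcases had.eq_or_lt with h | h
    · refine minGeo_local_unique h2 hd hc₁ hc₂ haI h4 (S := Icc 0 d)
        ((uniqueDiffOn_Icc hd) a haI) subset_rfl he (by rw [h]; exact hx) (v := v) ?_ ?_
      · rw [h]; exact hv₁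
      · rw [h]; exact hv₂
    · have he' : chartAt E (c₁ a) ∈ maximalAtlas 𝓘(ℝ, E) ∞ M := chart_mem_maximalAtlas _
      have hx' : c₁ a ∈ (chartAt E (c₁ a)).source := mem_chart_source E _
      obtain ⟨u, hu, -⟩ := exists_vel h2 hc₁ ⟨h0, h⟩ he' hx'
      have hsub : Icc a d ⊆ Icc 0 d := Icc_subset_Icc ha0 le_rfl
      refine minGeo_local_unique h2 hd hc₁ hc₂ haI h4 (S := Icc a d)
        ((uniqueDiffOn_Icc h) a ⟨le_rfl, had⟩) hsub he' hx' (v := u) hu.hasDerivWithinAt ?_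
      refine hu.hasDerivWithinAt.congr (fun t ht => ?_) ?_
      · rw [haA t ht]
      · rw [h4]
  obtain ⟨ε, hε, hε'⟩ := Metric.eventually_nhds_iff.1 hloc
  have hmin : a - min (ε / 2) a ∈ A := by
    have hm0 : 0 < min (ε / 2) a := lt_min (by linarith) h0
    refine ⟨⟨by linarith [min_le_right (ε / 2) a], by linarith⟩, fun t ht => ?_⟩
    rcases le_or_gt a t with h | h
    · exact haA t ⟨h, ht.2⟩
    · refine hε' ?_ ⟨by linarith [min_le_right (ε / 2) a, ht.1], ht.2⟩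
      rw [Real.dist_eq, abs_sub_comm, abs_of_pos (by linarith)]
      linarith [min_le_left (ε / 2) a, ht.1]
  have := csInf_le hbdd hmin
  have hm0 : 0 < min (ε / 2) a := lt_min (by linarith) h0
  linarith

theorem differentiableAt_chart {e : OpenPartialHomeomorph M E}
    (he : e ∈ maximalAtlas 𝓘(ℝ, E) ∞ M) {f : M → ℝ} {z : M} (hz : z ∈ e.source)
    (hf : MDifferentiableAt 𝓘(ℝ, E) 𝓘(ℝ, ℝ) f z) : DifferentiableAt ℝ (f ∘ e.symm) (e z) := by
  rw [← mdifferentiableAt_iff_differentiableAt]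
  have h1 : MDifferentiableAt 𝓘(ℝ, E) 𝓘(ℝ, E) e.symm (e z) :=
    (mdifferentiable_chart he).mdifferentiableAt_symm (e.map_source hz)
  exact MDifferentiableAt.comp (e z) (by rw [e.left_inv hz]; exact hf) h1

/-- the velocity at the end point -/
theorem minGeo_vel_end (h2 : Geo2 E M) {x z : M} {c : ℝ → M} {d : ℝ} (hd : 0 < d)
    (hc : MinGeo c 0 d) (hc0 : c 0 = x) (hcz : c d = z)
    (hdiff : MDifferentiableAt 𝓘(ℝ, E) 𝓘(ℝ, ℝ) (fun q => dist x q) z)
    (hunit : Gam E (fun q => dist x q) (fun q => dist x q) z = 1) :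
    HasDerivWithinAt (fun t => chartAt E z (c t))
      (gradG (chartG (chartAt E z)) ((fun q => dist x q) ∘ (chartAt E z).symm) (chartAt E z z))
      (Icc 0 d) d := by
  have he : chartAt E z ∈ maximalAtlas 𝓘(ℝ, E) ∞ M := chart_mem_maximalAtlas z
  have hx : z ∈ (chartAt E z).source := mem_chart_source E z
  set e := chartAt E z with hedef
  have hdI : d ∈ Icc 0 d := ⟨hd.le, le_rfl⟩
  obtain ⟨δ, hδ, w, w', hw, hcw⟩ := h2 c 0 d d hd hc hdI e he (by rw [hcz]; exact hx)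
  have h0 := hw d (by simpa using hδ)
  have h1 := hcw d hdI (by simpa using hδ)
  have hwd : w d = e z := by rw [← h1.2, hcz]
  have hev : ∀ᶠ t in 𝓝 d, |t - d| < δ := by
    filter_upwards [Metric.ball_mem_nhds d hδ] with t ht
    rwa [mem_ball, Real.dist_eq] at ht
  have hderiv : HasDerivWithinAt (fun t => e (c t)) (w' d) (Icc 0 d) d := by
    refine h0.1.hasDerivWithinAt.congr_of_eventuallyEq ?_ h1.2
    filter_upwards [nhdsWithin_le_nhds hev, self_mem_nhdsWithin] with t ht ht'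
    exact (hcw t ht' ht).2
  have hG := localRiem_chartG he
  have hzt : e z ∈ e.target := e.map_source hx
  have hdf := differentiableAt_chart he hx hdiff
  have h3 : fderiv ℝ ((fun q => dist x q) ∘ e.symm) (e z) (w' d) = 1 := by
    have k1 : HasDerivWithinAt (fun t => ((fun q => dist x q) ∘ e.symm) (w t))
        (fderiv ℝ ((fun q => dist x q) ∘ e.symm) (e z) (w' d)) (Icc 0 d) d := by
      have := hdf.hasFDerivAt
      rw [← hwd] at this
      have k := this.comp_hasDerivAt d h0.1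
      rw [hwd] at k
      exact k.hasDerivWithinAt
    refine UniqueDiffWithinAt.eq_deriv (Icc 0 d) ((uniqueDiffOn_Icc hd) d hdI) k1
      (((hasDerivAt_id d).hasDerivWithinAt).congr_of_eventuallyEq ?_ ?_)
    · filter_upwards [nhdsWithin_le_nhds hev, self_mem_nhdsWithin] with t ht ht'
      have k2 := hcw t ht' ht
      have k3 := hc 0 ⟨le_rfl, hd.le⟩ t ht'
      rw [hc0, zero_sub, abs_neg, abs_of_nonneg ht'.1] at k3
      simp only [Function.comp, ← k2.2, e.left_inv k2.1, id]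
      exact k3
    · have k3 := hc 0 ⟨le_rfl, hd.le⟩ d hdI
      rw [hc0, zero_sub, abs_neg, abs_of_nonneg hd.le, hcz] at k3
      simp only [Function.comp, hwd, e.left_inv hx, id]
      exact k3
  have h4 : w' d = gradG (chartG e) ((fun q => dist x q) ∘ e.symm) (e z) := by
    refine eq_gradG_of_unit hG hzt ?_ h3 hunit
    rw [← hwd]
    exact h0.2.2.2
  rw [← h4]
  exact hderiv

theorem exists_minGeo_through (h1 : ∀ x y : M, ∃ c : ℝ → M,
      MinGeo c 0 (dist x y) ∧ c 0 = x ∧ c (dist x y) = y) {x w z : M}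
    (hw : dist x w + dist w z = dist x z) :
    ∃ c : ℝ → M, MinGeo c 0 (dist x z) ∧ c 0 = x ∧ c (dist x w) = w ∧ c (dist x z) = z := by
  obtain ⟨c₁, a1, a2, a3⟩ := h1 x w
  obtain ⟨c₂, b1, b2, b3⟩ := h1 w z
  rw [← hw]
  refine ⟨fun t => if t ≤ dist x w then c₁ t else c₂ (t - dist x w), ?_, ?_, ?_, ?_⟩
  · refine minGeo_concat (c₂ := fun t => c₂ (t - dist x w)) dist_nonneg dist_nonneg a1
      (minGeo_shift _ b1) ?_ ?_
    · simp [a3, b2]
    · show dist (c₁ 0) (c₂ (dist x w + dist w z - dist x w)) = dist x w + dist w z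
      rw [add_sub_cancel_left, a2, b3, hw]
  · simp [a2]
  · simp [a3]
  · show (if dist x w + dist w z ≤ dist x w then c₁ (dist x w + dist w z)
      else c₂ (dist x w + dist w z - dist x w)) = z
    split_ifs with h
    · have h' : dist w z = 0 := le_antisymm (by linarith) dist_nonneg
      rw [h', add_zero, a3]
      exact dist_eq_zero.1 h'
    · rw [add_sub_cancel_left, b3]

/-- Points where `dist x` is differentiable have unique geodesics to `x`. -/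
theorem minGeo_unique_of_diff (h2 : Geo2 E M) {x z : M}
    (hdiff : MDifferentiableAt 𝓘(ℝ, E) 𝓘(ℝ, ℝ) (fun q => dist x q) z)
    (hunit : Gam E (fun q => dist x q) (fun q => dist x q) z = 1) {c₁ c₂ : ℝ → M}
    (hd : 0 < dist x z) (hc₁ : MinGeo c₁ 0 (dist x z)) (hc₂ : MinGeo c₂ 0 (dist x z))
    (h₁0 : c₁ 0 = x) (h₁z : c₁ (dist x z) = z) (h₂0 : c₂ 0 = x) (h₂z : c₂ (dist x z) = z) :
    ∀ t ∈ Icc 0 (dist x z), c₁ t = c₂ t :=
  minGeo_unique h2 hd hc₁ hc₂ (h₁z.trans h₂z.symm) (chart_mem_maximalAtlas z)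
    (by rw [h₁z]; exact mem_chart_source E z)
    (minGeo_vel_end h2 hd hc₁ h₁0 h₁z hdiff hunit)
    (minGeo_vel_end h2 hd hc₂ h₂0 h₂z hdiff hunit)

/-- uniqueness of intermediate points -/
theorem pt_unique (h1 : ∀ x y : M, ∃ c : ℝ → M,
      MinGeo c 0 (dist x y) ∧ c 0 = x ∧ c (dist x y) = y) (h2 : Geo2 E M) {x z : M}
    (hdiff : x ≠ z → MDifferentiableAt 𝓘(ℝ, E) 𝓘(ℝ, ℝ) (fun q => dist x q) z ∧
      Gam E (fun q => dist x q) (fun q => dist x q) z = 1) {l : ℝ} (hl : l ∈ Icc (0 : ℝ) 1)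
    {w₁ w₂ : M} (h₁ : dist x w₁ = l * dist x z) (h₁' : dist w₁ z = (1 - l) * dist x z)
    (h₂ : dist x w₂ = l * dist x z) (h₂' : dist w₂ z = (1 - l) * dist x z) : w₁ = w₂ := by
  rcases eq_or_ne x z with rfl | hne
  · rw [dist_self, mul_zero] at h₁ h₂
    rw [← dist_eq_zero.1 h₁, ← dist_eq_zero.1 h₂]
  have hd : 0 < dist x z := dist_pos.2 hne
  obtain ⟨c₁, a1, a2, a3, a4⟩ := exists_minGeo_through h1 (x := x) (w := w₁) (z := z)
    (by rw [h₁, h₁']; ring)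
  obtain ⟨c₂, b1, b2, b3, b4⟩ := exists_minGeo_through h1 (x := x) (w := w₂) (z := z)
    (by rw [h₂, h₂']; ring)
  have key := minGeo_unique_of_diff h2 (hdiff hne).1 (hdiff hne).2 hd a1 b1 a2 a4 b2 b4
    (l * dist x z) ⟨mul_nonneg hl.1 hd.le, by nlinarith [hl.2]⟩
  rw [h₁] at a3
  rw [h₂] at b3
  rw [← a3, ← b3, key]

end Vale.Agent.P210.R2.H999
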