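import Mathlib.MeasureTheory.Integral.IntervalIntegral.FundThmCalculus
import Mathlib.MeasureTheory.Integral.IntervalIntegral.IntegrationByParts
import Vale.Agent.P210.R2.H999.SegB

/-!
# Segment inequality: second order bound along a minimal geodesic
-/

open scoped Manifold ContDiff Topology Bundle
open Set Metric Filter Bundle IsManifold MeasureTheory Manifold

set_option maxSynthPendingDepth 3

noncomputable section

namespace Vale.Agent.P210.R2.H999

open Vale.Agent.P210.R2.H53 Vale.Agent.P210.R2.H973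

variable {E : Type} [NormedAddCommGroup E] [NormedSpace ℝ E] [FiniteDimensional ℝ E]
  {M : Type} [MetricSpace M] [ChartedSpace E M]
  [RiemannianBundle (fun x : M => TangentSpace 𝓘(ℝ, E) x)]
  [IsManifold 𝓘(ℝ, E) ∞ M]
  [IsContMDiffRiemannianBundle 𝓘(ℝ, E) ∞ E (fun x : M => TangentSpace 𝓘(ℝ, E) x)]

omit [FiniteDimensional ℝ E] [RiemannianBundle (fun x : M => TangentSpace 𝓘(ℝ, E) x)]
  [IsManifold 𝓘(ℝ, E) ∞ M]
  [IsContMDiffRiemannianBundle 𝓘(ℝ, E) ∞ E (fun x : M => TangentSpace 𝓘(ℝ, E) x)] in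
theorem contDiffOn_chart {e : OpenPartialHomeomorph M E}
    (he : e ∈ maximalAtlas 𝓘(ℝ, E) ∞ M) {u : M → ℝ} (hu : ContMDiff 𝓘(ℝ, E) 𝓘(ℝ, ℝ) ∞ u) :
    ContDiffOn ℝ ∞ (u ∘ e.symm) e.target := by
  rw [← contMDiffOn_iff_contDiffOn]
  exact hu.comp_contMDiffOn (contMDiffOn_symm_of_mem_maximalAtlas he)

omit [FiniteDimensional ℝ E] [IsManifold 𝓘(ℝ, E) ∞ M]
  [IsContMDiffRiemannianBundle 𝓘(ℝ, E) ∞ E (fun x : M => TangentSpace 𝓘(ℝ, E) x)] in
/-- derivatives of a smooth function along a geodesic in a chart -/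
theorem hasDerivAt_geo {e : OpenPartialHomeomorph M E}
    {φ : E → ℝ} (hφ : ContDiffOn ℝ ∞ φ e.target) {w w' : ℝ → E}
    {t : ℝ} (h : GeoAt e w w' t) :
    HasDerivAt (fun s => φ (w s)) (fderiv ℝ φ (w t) (w' t)) t ∧
    HasDerivAt (fun s => fderiv ℝ φ (w s) (w' s)) (hessG (chartG e) φ (w t) (w' t) (w' t)) t := by
  obtain ⟨h1, h2, h3, -⟩ := h
  have hmem := e.open_target.mem_nhds h3
  have k1 : DifferentiableAt ℝ φ (w t) := (hφ.contDiffAt hmem).differentiableAt (by simp)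
  have k2 : DifferentiableAt ℝ (fderiv ℝ φ) (w t) :=
    ((hφ.fderiv_of_isOpen e.open_target (m := ∞) (by simp)).contDiffAt hmem).differentiableAt
      (by simp)
  refine ⟨k1.hasFDerivAt.comp_hasDerivAt t h1, ?_⟩
  have k3 := k2.hasFDerivAt.comp_hasDerivAt t h1
  have k4 := k3.clm_apply h2
  refine k4.congr_deriv ?_
  rw [hessG_apply]
  simp [sub_eq_add_neg]

/-- first and second derivatives of a smooth function along a minimal geodesic -/
theorem minGeo_deriv (h2 : Geo2 E M) {c : ℝ → M} {d : ℝ} (hd : 0 < d) (hc : MinGeo c 0 d)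
    {u : M → ℝ} (hu : ContMDiff 𝓘(ℝ, E) 𝓘(ℝ, ℝ) ∞ u) :
    ∃ g h : ℝ → ℝ,
      (∀ s ∈ Icc 0 d, HasDerivWithinAt (fun t => u (c t)) (g s) (Icc 0 d) s) ∧
      (∀ s ∈ Icc 0 d, HasDerivWithinAt g (h s) (Icc 0 d) s) ∧
      (∀ s ∈ Icc 0 d, |h s| ≤ √(HS E 0 u (c s))) ∧
      (∀ v : E, HasDerivWithinAt (fun t => chartAt E (c d) (c t)) v (Icc 0 d) d →
        g d = fderiv ℝ (u ∘ (chartAt E (c d)).symm) (chartAt E (c d) (c d)) v) := by
  have hud : UniqueDiffOn ℝ (Icc 0 d) := uniqueDiffOn_Icc hd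
  set g : ℝ → ℝ := fun s => derivWithin (fun t => u (c t)) (Icc 0 d) s with hg
  have hev : ∀ {δ : ℝ} (s : ℝ), 0 < δ → ∀ᶠ t in 𝓝 s, |t - s| < δ := fun {δ} s hδ => by
    filter_upwards [Metric.ball_mem_nhds s hδ] with t ht
    rwa [mem_ball, Real.dist_eq] at ht
  have main : ∀ s ∈ Icc 0 d, ∃ δ > 0, ∃ w w' : ℝ → E,
      (∀ t, |t - s| < δ → GeoAt (chartAt E (c s)) w w' t) ∧
      (∀ t ∈ Icc 0 d, |t - s| < δ → c t ∈ (chartAt E (c s)).source ∧ chartAt E (c s) (c t) = w t ∧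
        HasDerivWithinAt (fun t => u (c t))
          (fderiv ℝ (u ∘ (chartAt E (c s)).symm) (w t) (w' t)) (Icc 0 d) t) := by
    intro s hs
    have he : chartAt E (c s) ∈ maximalAtlas 𝓘(ℝ, E) ∞ M := chart_mem_maximalAtlas _
    have hx : c s ∈ (chartAt E (c s)).source := mem_chart_source E _
    obtain ⟨δ, hδ, w, w', hw, hcw⟩ := h2 c 0 d s hd hc hs _ he hx
    refine ⟨δ, hδ, w, w', hw, fun t ht hts => ⟨(hcw t ht hts).1, (hcw t ht hts).2, ?_⟩⟩
    have k1 := (hasDerivAt_geo (contDiffOn_chart he hu) (hw t hts)).1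
    refine k1.hasDerivWithinAt.congr_of_eventuallyEq ?_ ?_
    · have : ∀ᶠ r in 𝓝 t, |r - s| < δ := by
        have hcont : ContinuousAt (fun r : ℝ => |r - s|) t := by fun_prop
        exact hcont.eventually_lt continuousAt_const hts
      filter_upwards [nhdsWithin_le_nhds this, self_mem_nhdsWithin] with r hr hr'
      have k2 := hcw r hr' hr
      simp only [Function.comp, ← k2.2, (chartAt E (c s)).left_inv k2.1]
    · have k2 := hcw t ht hts
      simp only [Function.comp, ← k2.2, (chartAt E (c s)).left_inv k2.1]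
  have hex : ∀ s ∈ Icc 0 d, ∃ k : ℝ, HasDerivWithinAt g k (Icc 0 d) s ∧
      |k| ≤ √(HS E 0 u (c s)) := by
    intro s hs
    have he : chartAt E (c s) ∈ maximalAtlas 𝓘(ℝ, E) ∞ M := chart_mem_maximalAtlas _
    have hx : c s ∈ (chartAt E (c s)).source := mem_chart_source E _
    obtain ⟨δ, hδ, w, w', hw, hcw⟩ := main s hs
    have h0 := hw s (by simpa using hδ)
    have h1 := hcw s hs (by simpa using hδ)
    have k1 := (hasDerivAt_geo (contDiffOn_chart he hu) h0).2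
    refine ⟨_, (k1.hasDerivWithinAt (s := Icc 0 d)).congr_of_eventuallyEq ?_ ?_, ?_⟩
    · filter_upwards [nhdsWithin_le_nhds (hev s hδ), self_mem_nhdsWithin] with t ht ht'
      exact (hcw t ht' ht).2.2.derivWithin (hud t ht')
    · exact h1.2.2.derivWithin (hud s hs)
    · rw [HS, h1.2.1]
      refine abs_hessG_le (localRiem_chartG he) h0.2.2.1 ?_ h0.2.2.2
      exact ((contDiffOn_chart he hu).contDiffAt
        ((chartAt E (c s)).open_target.mem_nhds h0.2.2.1)).of_le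
          ENat.LEInfty.out
  refine ⟨g, fun s => derivWithin g (Icc 0 d) s, ?_, ?_, ?_, ?_⟩
  · intro s hs
    obtain ⟨δ, hδ, w, w', hw, hcw⟩ := main s hs
    exact (hcw s hs (by simpa using hδ)).2.2.differentiableWithinAt.hasDerivWithinAt
  · intro s hs
    obtain ⟨k, hk, -⟩ := hex s hs
    exact hk.differentiableWithinAt.hasDerivWithinAt
  · intro s hs
    obtain ⟨k, hk, hk'⟩ := hex s hs
    show |derivWithin g (Icc 0 d) s| ≤ _
    rw [hk.derivWithin (hud s hs)]
    exact hk'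
  · intro v hv
    have hdI : d ∈ Icc 0 d := ⟨hd.le, le_rfl⟩
    obtain ⟨δ, hδ, w, w', hw, hcw⟩ := main d hdI
    have h0 := hw d (by simpa using hδ)
    have h1 := hcw d hdI (by simpa using hδ)
    rw [hg]
    simp only
    rw [h1.2.2.derivWithin (hud d hdI), h1.2.1]
    congr 1
    refine UniqueDiffWithinAt.eq_deriv (Icc 0 d) (hud d hdI)
      ((h0.1.hasDerivWithinAt (s := Icc 0 d)).congr_of_eventuallyEq ?_ h1.2.1) hv
    filter_upwards [nhdsWithin_le_nhds (hev d hδ), self_mem_nhdsWithin] with t ht ht'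
    exact (hcw t ht' ht).2.1

/-- Taylor's formula with integral bound -/
theorem taylor_bound {f g h b : ℝ → ℝ} {d l : ℝ} (hd : 0 < d) (hl : 0 ≤ l) (hl1 : l ≤ 1)
    (hf : ∀ s ∈ Icc 0 d, HasDerivWithinAt f (g s) (Icc 0 d) s)
    (hg : ∀ s ∈ Icc 0 d, HasDerivWithinAt g (h s) (Icc 0 d) s)
    (hb : ∀ s ∈ Icc 0 d, |h s| ≤ b s) (hbc : ContinuousOn b (Icc 0 d)) :
    |(1 - l) * d * g d - (f d - f (l * d))| ≤ d ^ 2 * ∫ s in l..1, b (s * d) := by
  have hld : 0 ≤ l * d := mul_nonneg hl hd.le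
  have hldd : l * d ≤ d := by nlinarith
  have hsub : Icc (l * d) d ⊆ Icc 0 d := Icc_subset_Icc hld le_rfl
  set ψ : ℝ → ℝ := fun s => (s - l * d) * g s - f s with hψ
  have hψd : ∀ s ∈ Icc 0 d, HasDerivWithinAt ψ ((s - l * d) * h s) (Icc 0 d) s := by
    intro s hs
    have k1 : HasDerivWithinAt (fun s : ℝ => s - l * d) 1 (Icc 0 d) s :=
      ((hasDerivAt_id s).sub_const _).hasDerivWithinAt
    refine ((k1.mul (hg s hs)).sub (hf s hs)).congr_deriv ?_
    ring
  have hint : IntegrableOn (fun s => d * b s) (Icc (l * d) d) :=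
    ((continuousOn_const.mul hbc).mono hsub).integrableOn_Icc
  have hmem : ∀ s ∈ Ioo (l * d) d, Icc 0 d ∈ 𝓝 s := fun s hs =>
    Icc_mem_nhds (hld.trans_lt hs.1) hs.2
  have hbd : ∀ s ∈ Ioo (l * d) d, |(s - l * d) * h s| ≤ d * b s := by
    intro s hs
    have hs' : s ∈ Icc 0 d := hsub (Ioo_subset_Icc_self hs)
    rw [abs_mul, abs_of_nonneg (by linarith [hs.1])]
    exact mul_le_mul (by linarith [hs.2]) (hb s hs') (abs_nonneg _) hd.le
  have hcont : ContinuousOn ψ (Icc (l * d) d) := fun s hs =>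
    ((hψd s (hsub hs)).continuousWithinAt).mono hsub
  have A1 : ψ d - ψ (l * d) ≤ ∫ y in (l * d)..d, d * b y :=
    intervalIntegral.sub_le_integral_of_hasDeriv_right_of_le hldd hcont
      (fun s hs => ((hψd s (hsub (Ioo_subset_Icc_self hs))).hasDerivAt (hmem s hs)).hasDerivWithinAt)
      hint (fun s hs => (le_abs_self _).trans (hbd s hs))
  have A2 : (-ψ) d - (-ψ) (l * d) ≤ ∫ y in (l * d)..d, d * b y :=
    intervalIntegral.sub_le_integral_of_hasDeriv_right_of_le hldd hcont.neg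
      (fun s hs =>
        (((hψd s (hsub (Ioo_subset_Icc_self hs))).hasDerivAt (hmem s hs)).neg).hasDerivWithinAt)
      hint (fun s hs => (neg_le_abs _).trans (hbd s hs))
  have A3 : ψ d - ψ (l * d) = (1 - l) * d * g d - (f d - f (l * d)) := by
    simp only [hψ]; ring
  have A4 : ∫ y in (l * d)..d, d * b y = d ^ 2 * ∫ s in l..1, b (s * d) := by
    rw [intervalIntegral.integral_comp_mul_right b hd.ne', intervalIntegral.integral_const_mul]
    rw [one_mul, smul_eq_mul, sq]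
    field_simp
  rw [← A3, ← A4, abs_le]
  refine ⟨?_, A1⟩
  simp only [Pi.neg_apply] at A2
  linarith

end Vale.Agent.P210.R2.H999
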