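import Mathlib.MeasureTheory.Integral.IntervalIntegral.Basic
import Mathlib.MeasureTheory.Measure.Prod
import Mathlib.MeasureTheory.Measure.Regular
import Mathlib.Topology.MetricSpace.ProperSpace.Lemmas
import Mathlib.MeasureTheory.Function.StronglyMeasurable.Lemmas
import Mathlib.MeasureTheory.Constructions.BorelSpace.Metric
import Mathlib.MeasureTheory.Function.LocallyIntegrable

/-!
# Segment inequality: the metric measure part
-/

open Set Metric Filter MeasureTheory
open scoped Topology ENNReal NNReal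

namespace Vale.Agent.P210.R2.H999

variable {X : Type*} [MetricSpace X]

/-- `T l z` is the point at fraction `l` between `x` and `z`, unique for `z ∈ U`. -/
structure IntPts (x : X) (T : ℝ → X → X) (U : Set X) : Prop where
  d1 : ∀ l ∈ Icc (0 : ℝ) 1, ∀ z, dist x (T l z) = l * dist x z
  d2 : ∀ l ∈ Icc (0 : ℝ) 1, ∀ z, dist (T l z) z = (1 - l) * dist x z
  uniq : ∀ l ∈ Icc (0 : ℝ) 1, ∀ z ∈ U, ∀ w, dist x w = l * dist x z →
    dist w z = (1 - l) * dist x z → w = T l z

variable {x : X} {T : ℝ → X → X} {U : Set X}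

theorem IntPts.continuousOn [ProperSpace X] (H : IntPts x T U) :
    ContinuousOn (fun y : ℝ × X => T y.1 y.2) (Icc (0 : ℝ) 1 ×ˢ U) := by
  intro z0 hz0
  have hR : IsClosed {y : (ℝ × X) × X | dist x y.2 = y.1.1 * dist x y.1.2 ∧
      dist y.2 y.1.2 = (1 - y.1.1) * dist x y.1.2} := by
    apply IsClosed.inter
    · exact isClosed_eq (by fun_prop) (by fun_prop)
    · exact isClosed_eq (by fun_prop) (by fun_prop)
  apply (isCompact_closedBall x (dist x z0.2 + 1)).tendsto_nhds_of_unique_mapClusterPt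
  · have h1 : ∀ᶠ z : ℝ × X in 𝓝[Icc (0 : ℝ) 1 ×ˢ U] z0, dist x z.2 < dist x z0.2 + 1 := by
      apply nhdsWithin_le_nhds
      have hc : ContinuousAt (fun z : ℝ × X => dist x z.2) z0 := by fun_prop
      exact hc.eventually_lt continuousAt_const (by linarith)
    filter_upwards [self_mem_nhdsWithin, h1] with z hz hz'
    rw [mem_closedBall, dist_comm, H.d1 z.1 hz.1 z.2]
    have := mul_le_mul_of_nonneg_right hz.1.2 (dist_nonneg (x := x) (y := z.2))
    linarith
  · intro y _ hy
    have h2 : (z0, y) ∈ {y : (ℝ × X) × X | dist x y.2 = y.1.1 * dist x y.1.2 ∧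
        dist y.2 y.1.2 = (1 - y.1.1) * dist x y.1.2} := by
      by_contra hne
      have hopen := hR.isOpen_compl.mem_nhds hne
      rw [nhds_prod_eq, mem_prod_iff] at hopen
      obtain ⟨U', hU', V, hV, hUV⟩ := hopen
      have h3 := hy.frequently hV
      have h4 : ∀ᶠ z in 𝓝[Icc (0 : ℝ) 1 ×ˢ U] z0, z ∈ U' ∧ z ∈ Icc (0 : ℝ) 1 ×ˢ U :=
        Filter.Eventually.and (mem_nhdsWithin_of_mem_nhds hU') self_mem_nhdsWithin
      obtain ⟨z, hz1, hz2, hz3⟩ := (h3.and_eventually h4).exists
      exact hUV (Set.mk_mem_prod hz2 hz1) ⟨H.d1 z.1 hz3.1 z.2, H.d2 z.1 hz3.1 z.2⟩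
    exact H.uniq z0.1 hz0.1 z0.2 hz0.2 y h2.1 h2.2

theorem IntPts.continuousOn_right [ProperSpace X] (H : IntPts x T U) {l : ℝ}
    (hl : l ∈ Icc (0 : ℝ) 1) : ContinuousOn (T l) U :=
  H.continuousOn.comp (f := fun z : X => (l, z)) (by fun_prop) (fun z hz => ⟨hl, hz⟩)

variable [ProperSpace X] [MeasurableSpace X] [BorelSpace X]

omit [ProperSpace X] in
theorem measurableSet_inter_preimage {P s : Set X} {f : X → X} (hf : ContinuousOn f P)
    (hP : MeasurableSet P) (hs : MeasurableSet s) : MeasurableSet (f ⁻¹' s ∩ P) := by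
  have h1 : MeasurableSet (P.domRestrict f ⁻¹' s) :=
    (continuousOn_iff_continuous_domRestrict.1 hf).measurable hs
  have h2 := hP.subtype_image h1
  have h3 : f ⁻¹' s ∩ P = Subtype.val '' (P.domRestrict f ⁻¹' s) := by
    ext z
    constructor
    · rintro ⟨a, b⟩
      exact ⟨⟨z, b⟩, a, rfl⟩
    · rintro ⟨⟨y, hy⟩, a, rfl⟩
      exact ⟨a, hy⟩
  rw [h3]
  exact h2

/-- the push-forward of the measure by `T l` -/
theorem IntPts.map_le (H : IntPts x T U) (μ : Measure X) [IsFiniteMeasureOnCompacts μ]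
    {R C : ℝ} {l : ℝ} (hl : l ∈ Icc (0 : ℝ) 1) (hC : 0 ≤ C)
    (hM : ∀ A : Set X, IsCompact A → A ⊆ closedBall x R →
      μ.real A ≤ C * μ.real {w | ∃ z ∈ A, dist x w = l * dist x z ∧
        dist w z = (1 - l) * dist x z})
    {P : Set X} (hP : MeasurableSet P) (hPU : P ⊆ U) (hPR : P ⊆ closedBall x R) :
    (μ.restrict P).map (T l) ≤ ENNReal.ofReal C • μ.restrict (closedBall x R) := by
  have hTc : ContinuousOn (T l) P := (H.continuousOn_right hl).mono hPU
  have hTm : AEMeasurable (T l) (μ.restrict P) := hTc.aemeasurable hP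
  rw [Measure.le_iff]
  intro s hs
  rw [Measure.map_apply_of_aemeasurable hTm hs, Measure.restrict_apply' hP, Measure.smul_apply,
    Measure.restrict_apply hs, smul_eq_mul]
  have hQ : MeasurableSet (T l ⁻¹' s ∩ P) := measurableSet_inter_preimage hTc hP hs
  have hball : μ (closedBall x R) ≠ ⊤ := (isCompact_closedBall x R).measure_ne_top
  have hfin : μ (T l ⁻¹' s ∩ P) ≠ ⊤ :=
    ne_top_of_le_ne_top hball (measure_mono (inter_subset_right.trans hPR))
  rw [hQ.measure_eq_iSup_isCompact_of_ne_top hfin]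
  refine iSup_le fun K => iSup_le fun hKQ => iSup_le fun hK => ?_
  have hKR : K ⊆ closedBall x R := (hKQ.trans inter_subset_right).trans hPR
  have hS : {w | ∃ z ∈ K, dist x w = l * dist x z ∧ dist w z = (1 - l) * dist x z} ⊆
      s ∩ closedBall x R := by
    rintro w ⟨z, hz, h1, h2⟩
    have h3 : w = T l z := H.uniq l hl z (hPU (hKQ hz).2) w h1 h2
    refine ⟨?_, ?_⟩
    · rw [h3]; exact (hKQ hz).1
    · have h4 := hKR hz
      rw [mem_closedBall, dist_comm] at h4
      rw [mem_closedBall, dist_comm, h1]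
      have := mul_le_mul_of_nonneg_right hl.2 (dist_nonneg (x := x) (y := z))
      linarith
  have hfin2 : μ (s ∩ closedBall x R) ≠ ⊤ :=
    ne_top_of_le_ne_top hball (measure_mono inter_subset_right)
  have h5 : μ.real K ≤ C * μ.real (s ∩ closedBall x R) :=
    (hM K hK hKR).trans (mul_le_mul_of_nonneg_left (measureReal_mono hS hfin2) hC)
  calc μ K = ENNReal.ofReal (μ.real K) :=
        (ENNReal.ofReal_toReal hK.measure_ne_top).symm
    _ ≤ ENNReal.ofReal (C * μ.real (s ∩ closedBall x R)) := ENNReal.ofReal_le_ofReal h5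
    _ = ENNReal.ofReal C * μ (s ∩ closedBall x R) := by
        rw [ENNReal.ofReal_mul hC, measureReal_def, ENNReal.ofReal_toReal hfin2]

theorem IntPts.lintegral_le (H : IntPts x T U) (μ : Measure X) [IsFiniteMeasureOnCompacts μ]
    {R C : ℝ} {l : ℝ} (hl : l ∈ Icc (0 : ℝ) 1) (hC : 0 ≤ C)
    (hM : ∀ A : Set X, IsCompact A → A ⊆ closedBall x R →
      μ.real A ≤ C * μ.real {w | ∃ z ∈ A, dist x w = l * dist x z ∧
        dist w z = (1 - l) * dist x z})
    {P : Set X} (hP : MeasurableSet P) (hPU : P ⊆ U) (hPR : P ⊆ closedBall x R)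
    {F : X → ℝ≥0∞} (hF : Measurable F) :
    ∫⁻ z in P, F (T l z) ∂μ ≤ ENNReal.ofReal C * ∫⁻ w in closedBall x R, F w ∂μ := by
  have hTm : AEMeasurable (T l) (μ.restrict P) :=
    ((H.continuousOn_right hl).mono hPU).aemeasurable hP
  rw [← lintegral_map' hF.aemeasurable hTm]
  refine (lintegral_mono' (H.map_le μ hl hC hM hP hPU hPR) le_rfl).trans ?_
  rw [lintegral_smul_measure, smul_eq_mul]

/-- Fubini -/
theorem IntPts.lintegral_lintegral_le (H : IntPts x T U) (μ : Measure X)
    [IsFiniteMeasureOnCompacts μ]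
    {R C lam : ℝ} (hlam : 0 ≤ lam) (hC : 0 ≤ C)
    (hM : ∀ l ∈ Icc lam 1, ∀ A : Set X, IsCompact A → A ⊆ closedBall x R →
      μ.real A ≤ C * μ.real {w | ∃ z ∈ A, dist x w = l * dist x z ∧
        dist w z = (1 - l) * dist x z})
    {P : Set X} (hP : MeasurableSet P) (hPU : P ⊆ U) (hPR : P ⊆ closedBall x R)
    {F : X → ℝ≥0∞} (hF : Measurable F) :
    ∫⁻ z in P, (∫⁻ l in Ioc lam 1, F (T l z)) ∂μ ≤
      ENNReal.ofReal C * ∫⁻ w in closedBall x R, F w ∂μ := by
  have hsub : Ioc lam 1 ⊆ Icc (0 : ℝ) 1 := fun l hl => ⟨hlam.trans hl.1.le, hl.2⟩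
  have hm : AEMeasurable (Function.uncurry fun (z : X) (l : ℝ) => F (T l z))
      ((μ.restrict P).prod (volume.restrict (Ioc lam 1))) := by
    rw [Measure.prod_restrict]
    refine hF.comp_aemeasurable (g := F) (f := fun y : X × ℝ => T y.2 y.1) ?_
    have h1 : ContinuousOn (fun y : X × ℝ => T y.2 y.1) (P ×ˢ Ioc lam 1) :=
      H.continuousOn.comp (f := fun y : X × ℝ => (y.2, y.1)) (by fun_prop)
        (fun y hy => ⟨hsub hy.2, hPU hy.1⟩)
    exact h1.aemeasurable (hP.prod measurableSet_Ioc)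
  rw [lintegral_lintegral_swap hm]
  calc ∫⁻ l in Ioc lam 1, ∫⁻ z in P, F (T l z) ∂μ
      ≤ ∫⁻ _ in Ioc lam 1, ENNReal.ofReal C * ∫⁻ w in closedBall x R, F w ∂μ := by
        refine setLIntegral_mono' measurableSet_Ioc fun l hl => ?_
        exact H.lintegral_le μ (hsub hl) hC (hM l (Ioc_subset_Icc_self hl)) hP hPU hPR hF
    _ = (ENNReal.ofReal C * ∫⁻ w in closedBall x R, F w ∂μ) * volume (Ioc lam 1) := by
        rw [setLIntegral_const]
    _ ≤ (ENNReal.ofReal C * ∫⁻ w in closedBall x R, F w ∂μ) * 1 := by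
        gcongr
        rw [Real.volume_Ioc]
        exact ENNReal.ofReal_le_one.2 (by linarith)
    _ = _ := mul_one _

/-- the segment inequality in the metric measure setting -/
theorem IntPts.seg_core (H : IntPts x T U) (μ : Measure X) [IsFiniteMeasureOnCompacts μ]
    (hU : MeasurableSet U) (hUμ : μ Uᶜ = 0)
    {R C lam : ℝ} (hR : 0 < R) (hlam : 0 < lam) (hlam1 : lam ≤ 1) (hC : 0 ≤ C)
    (hM : ∀ l ∈ Icc lam 1, ∀ A : Set X, IsCompact A → A ⊆ closedBall x R →
      μ.real A ≤ C * μ.real {w | ∃ z ∈ A, dist x w = l * dist x z ∧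
        dist w z = (1 - l) * dist x z})
    {f F φ : X → ℝ} (hf : Continuous f) (hF : Continuous F) (hf0 : ∀ z, 0 ≤ f z)
    (hF0 : ∀ z, 0 ≤ F z) {B : Set X} (hB : MeasurableSet B) (hBR : B ⊆ closedBall x R)
    (hφ : ∀ z ∈ B ∩ U, |φ z| ≤ lam * R + f z + f (T lam z) + R ^ 2 * ∫ l in lam..1, F (T l z)) :
    ∫ z in B, |φ z| ∂μ ≤ lam * R * μ.real B + ∫ z in B, f z ∂μ +
      C * (∫ z in closedBall x R, f z ∂μ + R ^ 2 * ∫ z in closedBall x R, F z ∂μ) := by
  have hball : μ (closedBall x R) ≠ ⊤ := (isCompact_closedBall x R).measure_ne_top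
  have hBfin : μ B ≠ ⊤ := ne_top_of_le_ne_top hball (measure_mono hBR)
  set P := B ∩ U with hPdef
  have hP : MeasurableSet P := hB.inter hU
  have hPB : P ⊆ B := inter_subset_left
  have hPU : P ⊆ U := inter_subset_right
  have hPR : P ⊆ closedBall x R := hPB.trans hBR
  have hPae : P =ᵐ[μ] B := by
    have : (U : Set X) =ᵐ[μ] (univ : Set X) := by
      rw [ae_eq_univ]; exact hUμ
    have h2 := (EventuallyEq.refl (ae μ) B).inter this
    rwa [inter_univ] at h2
  have hfi : IntegrableOn f (closedBall x R) μ := hf.continuousOn.integrableOn_compact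
    (isCompact_closedBall x R)
  have hFi : IntegrableOn F (closedBall x R) μ := hF.continuousOn.integrableOn_compact
    (isCompact_closedBall x R)
  have hRHS0 : 0 ≤ lam * R * μ.real B + ∫ z in B, f z ∂μ +
      C * (∫ z in closedBall x R, f z ∂μ + R ^ 2 * ∫ z in closedBall x R, F z ∂μ) := by
    have a1 : 0 ≤ ∫ z in B, f z ∂μ := integral_nonneg hf0
    have a2 : 0 ≤ ∫ z in closedBall x R, f z ∂μ := integral_nonneg hf0
    have a3 : 0 ≤ ∫ z in closedBall x R, F z ∂μ := integral_nonneg hF0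
    positivity
  have key : ∫⁻ z in B, ENNReal.ofReal |φ z| ∂μ ≤
      ENNReal.ofReal (lam * R * μ.real B + ∫ z in B, f z ∂μ +
        C * (∫ z in closedBall x R, f z ∂μ + R ^ 2 * ∫ z in closedBall x R, F z ∂μ)) := by
    rw [← setLIntegral_congr hPae]
    have hofF : Measurable fun z => ENNReal.ofReal (F z) := by fun_prop
    have hoff : Measurable fun z => ENNReal.ofReal (f z) := by fun_prop
    have hlamI : lam ∈ Icc (0 : ℝ) 1 := ⟨hlam.le, hlam1⟩
    have hTm : AEMeasurable (T lam) (μ.restrict P) :=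
      ((H.continuousOn_right hlamI).mono hPU).aemeasurable hP
    have hpt : ∀ z ∈ P, ENNReal.ofReal |φ z| ≤
        ((ENNReal.ofReal (lam * R) + ENNReal.ofReal (f z)) + ENNReal.ofReal (f (T lam z))) +
          ENNReal.ofReal (R ^ 2) * ∫⁻ l in Ioc lam 1, ENNReal.ofReal (F (T l z)) := by
      intro z hz
      have hcF : ContinuousOn (fun l : ℝ => F (T l z)) (Icc (0 : ℝ) 1) := by
        have h1 : ContinuousOn (fun l : ℝ => T l z) (Icc (0 : ℝ) 1) :=
          H.continuousOn.comp (f := fun l : ℝ => (l, z)) (by fun_prop)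
            (fun l hl => ⟨hl, hPU hz⟩)
        exact hF.comp_continuousOn h1
      have hiF : IntegrableOn (fun l : ℝ => F (T l z)) (Ioc lam 1) :=
        ((hcF.mono (Icc_subset_Icc hlam.le le_rfl)).integrableOn_Icc).mono_set
          Ioc_subset_Icc_self
      have h2 : ENNReal.ofReal (∫ l in lam..1, F (T l z)) =
          ∫⁻ l in Ioc lam 1, ENNReal.ofReal (F (T l z)) := by
        rw [intervalIntegral.integral_of_le hlam1]
        exact ofReal_integral_eq_lintegral_ofReal hiF (Eventually.of_forall fun l => hF0 _)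
      have h3 : 0 ≤ ∫ l in lam..1, F (T l z) :=
        intervalIntegral.integral_nonneg hlam1 fun l _ => hF0 _
      rw [← h2, ← ENNReal.ofReal_mul (by positivity), ← ENNReal.ofReal_add (by positivity) (hf0 _),
        ← ENNReal.ofReal_add (by have := hf0 z; positivity) (hf0 _),
        ← ENNReal.ofReal_add (by have := hf0 z; have := hf0 (T lam z); positivity)
          (by positivity)]
      exact ENNReal.ofReal_le_ofReal (hφ z hz)
    have hm1 : AEMeasurable (fun z => ENNReal.ofReal (f (T lam z))) (μ.restrict P) :=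
      hoff.comp_aemeasurable hTm
    have e1 : ∫⁻ z in P, (((ENNReal.ofReal (lam * R) + ENNReal.ofReal (f z)) +
        ENNReal.ofReal (f (T lam z))) +
          ENNReal.ofReal (R ^ 2) * ∫⁻ l in Ioc lam 1, ENNReal.ofReal (F (T l z))) ∂μ =
        ((ENNReal.ofReal (lam * R) * μ P + ∫⁻ z in P, ENNReal.ofReal (f z) ∂μ) +
          ∫⁻ z in P, ENNReal.ofReal (f (T lam z)) ∂μ) +
          ENNReal.ofReal (R ^ 2) *
            ∫⁻ z in P, (∫⁻ l in Ioc lam 1, ENNReal.ofReal (F (T l z))) ∂μ := by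
      rw [lintegral_add_left' (by fun_prop), lintegral_add_left' (by fun_prop),
        lintegral_add_left' (by fun_prop), setLIntegral_const,
        lintegral_const_mul' _ _ ENNReal.ofReal_ne_top]
    have b1 : ∫⁻ z in P, ENNReal.ofReal (f z) ∂μ = ENNReal.ofReal (∫ z in B, f z ∂μ) := by
      rw [setLIntegral_congr hPae]
      exact (ofReal_integral_eq_lintegral_ofReal (hfi.mono_set hBR)
        (Eventually.of_forall fun z => hf0 _)).symm
    have b2 : ∫⁻ z in P, ENNReal.ofReal (f (T lam z)) ∂μ ≤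
        ENNReal.ofReal C * ENNReal.ofReal (∫ z in closedBall x R, f z ∂μ) := by
      rw [ofReal_integral_eq_lintegral_ofReal hfi (Eventually.of_forall fun z => hf0 _)]
      exact H.lintegral_le μ hlamI hC (hM lam ⟨le_rfl, hlam1⟩) hP hPU hPR hoff
    have b3 : ∫⁻ z in P, (∫⁻ l in Ioc lam 1, ENNReal.ofReal (F (T l z))) ∂μ ≤
        ENNReal.ofReal C * ENNReal.ofReal (∫ z in closedBall x R, F z ∂μ) := by
      rw [ofReal_integral_eq_lintegral_ofReal hFi (Eventually.of_forall fun z => hF0 _)]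
      exact H.lintegral_lintegral_le μ hlam.le hC hM hP hPU hPR hofF
    have b4 : ENNReal.ofReal (lam * R) * μ P = ENNReal.ofReal (lam * R * μ.real B) := by
      rw [measure_congr hPae, ENNReal.ofReal_mul (p := lam * R) (q := μ.real B) (by positivity),
        measureReal_def, ENNReal.ofReal_toReal hBfin]
    refine (setLIntegral_mono' hP hpt).trans ?_
    rw [e1, b4, b1]
    have a1 : 0 ≤ ∫ z in B, f z ∂μ := integral_nonneg hf0
    have a2 : 0 ≤ ∫ z in closedBall x R, f z ∂μ := integral_nonneg hf0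
    have a3 : 0 ≤ ∫ z in closedBall x R, F z ∂μ := integral_nonneg hF0
    have e2 : ENNReal.ofReal (lam * R * μ.real B + ∫ z in B, f z ∂μ +
        C * (∫ z in closedBall x R, f z ∂μ + R ^ 2 * ∫ z in closedBall x R, F z ∂μ)) =
        ((ENNReal.ofReal (lam * R * μ.real B) + ENNReal.ofReal (∫ z in B, f z ∂μ)) +
          ENNReal.ofReal C * ENNReal.ofReal (∫ z in closedBall x R, f z ∂μ)) +
          ENNReal.ofReal (R ^ 2) *
            (ENNReal.ofReal C * ENNReal.ofReal (∫ z in closedBall x R, F z ∂μ)) := by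
      rw [← ENNReal.ofReal_mul hC, ← ENNReal.ofReal_mul hC, ← ENNReal.ofReal_mul (by positivity),
        ← ENNReal.ofReal_add (by positivity) a1, ← ENNReal.ofReal_add (by positivity)
          (by positivity), ← ENNReal.ofReal_add (by positivity) (by positivity)]
      congr 1
      ring
    rw [e2]
    gcongr
  have h1 : ∫ z in B, |φ z| ∂μ ≤ (∫⁻ z in B, ENNReal.ofReal |φ z| ∂μ).toReal := by
    have := norm_integral_le_lintegral_norm (μ := μ.restrict B) (fun z => |φ z|)
    simp only [Real.norm_eq_abs, abs_abs] at this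
    exact (le_abs_self _).trans this
  exact h1.trans (ENNReal.toReal_le_of_le_ofReal hRHS0 key)

end Vale.Agent.P210.R2.H999
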