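import Vale.Agent.P210.R2.H53.RSpec
import Vale.Agent.P210.R2.H196.Geo
import Vale.Agent.P210.R2.H999.SegC
import Vale.Agent.P210.R2.H999.SegD

/-!
# The segment inequality
-/

open scoped Manifold ContDiff Topology Bundle ENNReal NNReal
open Set Metric Filter Bundle IsManifold MeasureTheory Manifold

set_option maxSynthPendingDepth 3

noncomputable section

namespace Vale.Agent.P210.R2.H999

open Vale.Agent.P210.R2.H53 Vale.Agent.P210.R2.H973

section

variable {E : Type} [NormedAddCommGroup E] [NormedSpace ℝ E] [FiniteDimensional ℝ E]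
  {M : Type} [MetricSpace M] [ChartedSpace E M]
  [RiemannianBundle (fun x : M => TangentSpace 𝓘(ℝ, E) x)]
  [IsManifold 𝓘(ℝ, E) ∞ M]
  [IsContMDiffRiemannianBundle 𝓘(ℝ, E) ∞ E (fun x : M => TangentSpace 𝓘(ℝ, E) x)]

theorem exists_intPts (h1 : ∀ x y : M, ∃ c : ℝ → M,
      MinGeo c 0 (dist x y) ∧ c 0 = x ∧ c (dist x y) = y) (h2 : Geo2 E M) (x : M) {U : Set M}
    (hU : ∀ z ∈ U, x ≠ z → MDifferentiableAt 𝓘(ℝ, E) 𝓘(ℝ, ℝ) (fun q => dist x q) z ∧
      Gam E (fun q => dist x q) (fun q => dist x q) z = 1) :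
    ∃ T : ℝ → M → M, IntPts x T U := by
  have hex : ∀ (l : ℝ) (z : M), ∃ w : M, l ∈ Icc (0 : ℝ) 1 →
      dist x w = l * dist x z ∧ dist w z = (1 - l) * dist x z := by
    intro l z
    obtain ⟨c, c1, c2, c3⟩ := h1 x z
    refine ⟨c (l * dist x z), fun hl => ?_⟩
    have hd : 0 ≤ dist x z := dist_nonneg
    have hm : l * dist x z ∈ Icc 0 (dist x z) :=
      ⟨mul_nonneg hl.1 hd, mul_le_of_le_one_left hd hl.2⟩
    have k1 := c1 0 ⟨le_rfl, hd⟩ _ hm
    have k2 := c1 _ hm (dist x z) ⟨hd, le_rfl⟩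
    rw [c2, zero_sub, abs_neg, abs_of_nonneg hm.1] at k1
    rw [c3, abs_sub_comm, abs_of_nonneg (by linarith [hm.2])] at k2
    exact ⟨k1, by rw [k2]; ring⟩
  choose T hT using hex
  exact ⟨T, fun l hl z => (hT l z hl).1, fun l hl z => (hT l z hl).2,
    fun l hl z hz w hw hw' => pt_unique h1 h2 (hU z hz) hl hw hw' (hT l z hl).1 (hT l z hl).2⟩

theorem abs_four (a b c e : ℝ) : |a + b + -c + -e| ≤ |a| + |b| + |c| + |e| := by
  have k1 := abs_add_le (a + b + -c) (-e)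
  have k2 := abs_add_le (a + b) (-c)
  have k3 := abs_add_le a b
  rw [abs_neg] at k1 k2
  linarith

/-- the pointwise estimate -/
theorem seg_pointwise (h1 : ∀ x y : M, ∃ c : ℝ → M,
      MinGeo c 0 (dist x y) ∧ c 0 = x ∧ c (dist x y) = y) (h2 : Geo2 E M) {x : M} {U : Set M}
    {T : ℝ → M → M} (H : IntPts x T U) {u h : M → ℝ} (hu : ContMDiff 𝓘(ℝ, E) 𝓘(ℝ, ℝ) ∞ u)
    (hHS : Continuous (HS E 0 u)) (hh : LipschitzWith 1 h) {z : M} (hz : z ∈ U) {lam R : ℝ}
    (hlam : 0 < lam) (hlam1 : lam ≤ 1) (hzR : dist x z ≤ R)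
    (hdiff : x ≠ z → MDifferentiableAt 𝓘(ℝ, E) 𝓘(ℝ, ℝ) (fun q => dist x q) z ∧
      Gam E (fun q => dist x q) (fun q => dist x q) z = 1) :
    |(1 - lam) * dist x z * Gam E u (fun q => dist x q) z - (h z - h x)| ≤
      lam * R + |u z - h z| + |u (T lam z) - h (T lam z)| +
        R ^ 2 * ∫ l in lam..1, √(HS E 0 u (T l z)) := by
  have hR : 0 ≤ R := dist_nonneg.trans hzR
  have hint0 : 0 ≤ ∫ l in lam..1, √(HS E 0 u (T l z)) :=
    intervalIntegral.integral_nonneg hlam1 fun l _ => Real.sqrt_nonneg _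
  rcases eq_or_ne x z with rfl | hne
  · rw [dist_self, mul_zero, zero_mul, sub_self, sub_self, abs_zero]
    positivity
  obtain ⟨hd1, hd2⟩ := hdiff hne
  have hd : 0 < dist x z := dist_pos.2 hne
  obtain ⟨c, c1, c2, c3⟩ := h1 x z
  set d := dist x z with hdef
  have hTc : ∀ l ∈ Icc (0 : ℝ) 1, T l z = c (l * d) := by
    intro l hl
    have hm : l * d ∈ Icc 0 d := ⟨mul_nonneg hl.1 hd.le, mul_le_of_le_one_left hd.le hl.2⟩
    have k1 := c1 0 ⟨le_rfl, hd.le⟩ _ hm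
    have k2 := c1 _ hm d ⟨hd.le, le_rfl⟩
    rw [c2, zero_sub, abs_neg, abs_of_nonneg hm.1] at k1
    rw [c3, abs_sub_comm, abs_of_nonneg (by linarith [hm.2])] at k2
    exact (H.uniq l hl z hz _ k1 (by rw [k2]; ring)).symm
  obtain ⟨g, g2, a1, a2, a3, a4⟩ := minGeo_deriv h2 hd c1 hu
  have hvel := minGeo_vel_end h2 hd c1 c2 c3 hd1 hd2
  rw [← c3] at hvel
  have hgd : g d = Gam E u (fun q => dist x q) z := by
    rw [a4 _ hvel, c3]
    rfl
  have hbc : ContinuousOn (fun s => √(HS E 0 u (c s))) (Icc 0 d) :=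
    (Real.continuous_sqrt.comp hHS).comp_continuousOn (minGeo_continuousOn c1)
  have key := taylor_bound hd hlam.le hlam1 a1 a2 a3 hbc
  rw [hgd, c3, ← hTc lam ⟨hlam.le, hlam1⟩] at key
  have hI : ∫ s in lam..1, √(HS E 0 u (c (s * d))) = ∫ l in lam..1, √(HS E 0 u (T l z)) := by
    refine intervalIntegral.integral_congr fun l hl => ?_
    rw [uIcc_of_le hlam1] at hl
    rw [hTc l ⟨hlam.le.trans hl.1, hl.2⟩]
  rw [hI] at key
  have k1 : d ^ 2 * ∫ l in lam..1, √(HS E 0 u (T l z)) ≤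
      R ^ 2 * ∫ l in lam..1, √(HS E 0 u (T l z)) :=
    mul_le_mul_of_nonneg_right (pow_le_pow_left₀ hd.le hzR 2) hint0
  have k2 : |h (T lam z) - h x| ≤ lam * R := by
    have := hh.dist_le_mul (T lam z) x
    rw [Real.dist_eq, dist_comm (T lam z) x, H.d1 lam ⟨hlam.le, hlam1⟩ z] at this
    simp only [NNReal.coe_one, one_mul] at this
    exact this.trans (mul_le_mul_of_nonneg_left hzR hlam.le)
  have k3 : (1 - lam) * d * Gam E u (fun q => dist x q) z - (h z - h x) =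
      ((1 - lam) * d * Gam E u (fun q => dist x q) z - (u z - u (T lam z))) +
        (u z - h z) + -(u (T lam z) - h (T lam z)) + -(h (T lam z) - h x) := by ring
  rw [k3]
  refine (abs_four _ _ _ _).trans ?_
  linarith

end

theorem seg (hMCP : Stmt.MCP) (hCALA : Stmt.CALA) (hCALB : Stmt.CALB) (hCALC : Stmt.CALC) :
    Stmt.SEG := by
  intro n hn E _ _ _ _ _ M _ _ _ _ _ _ _ _ _ hfr hfin μ K hvol hK hRic x R lam u h B hR hlam
    hlam1 hu hh hB hBR
  obtain ⟨g1, g2, -⟩ := H196.geo E M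
  have hconn : ConnectedSpace M := by
    have : PathConnectedSpace M := ⟨⟨x⟩, fun x y => pathConnected_of_riemannian (E := E) x y⟩
    infer_instance
  obtain ⟨-, h1⟩ := g1 inferInstance hconn
  obtain ⟨A1, A2, A3, A4, A5⟩ := hCALA E M hfr μ hvol
  obtain ⟨B1, B2, B3, B4, B5, B6, B7, B8, B9, B10, B11⟩ := hCALB E M hfr
  obtain ⟨C1, C2, C3, -⟩ := hCALC E M hfr
  have : IsFiniteMeasureOnCompacts μ := ⟨fun K hK => A1 K hK⟩
  have hlip : LocallyLipschitz fun q : M => dist x q :=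
    (LipschitzWith.dist_right x).locallyLipschitz
  obtain ⟨S, hS1, hS2, hS3⟩ := exists_measurable_superset_of_null
    (mem_ae_iff.1 (A3 _ hlip))
  have hU : ∀ z ∈ Sᶜ, x ≠ z → MDifferentiableAt 𝓘(ℝ, E) 𝓘(ℝ, ℝ) (fun q => dist x q) z ∧
      Gam E (fun q => dist x q) (fun q => dist x q) z = 1 := by
    intro z hz hne
    have hd : MDifferentiableAt 𝓘(ℝ, E) 𝓘(ℝ, ℝ) (fun q => dist x q) z := by
      by_contra hcon
      exact hz (hS1 hcon)
    exact ⟨hd, B11 x z hne hd⟩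
  obtain ⟨T, H⟩ := exists_intPts h1 g2 x hU
  obtain ⟨D1, D2⟩ := C3 0 u hu
  refine H.seg_core μ hS2.compl (by rwa [compl_compl]) hR hlam hlam1
    (C := lam⁻¹ ^ n * Real.exp (K * R ^ 2)) (by positivity) ?_
    (f := fun z => |u z - h z|) (F := fun z => √(HS E 0 u z))
    (φ := fun z => (1 - lam) * dist x z * Gam E u (fun q => dist x q) z - (h z - h x))
    ((hu.1.continuous.sub hh.continuous).abs) (Real.continuous_sqrt.comp D1)
    (fun z => abs_nonneg _) (fun z => Real.sqrt_nonneg _) hB hBR ?_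
  · intro l hl A hA hAR
    have hl0 : 0 < l := hlam.trans_le hl.1
    refine (hMCP n hn E M hfr hfin μ K hvol hK hRic x R l A hR hl0 hl.2 hA hAR).trans ?_
    have h3 : l⁻¹ ^ n ≤ lam⁻¹ ^ n :=
      pow_le_pow_left₀ (by positivity) (inv_anti₀ hlam hl.1) n
    have h4 : 0 ≤ μ.real {w | ∃ z ∈ A, dist x w = l * dist x z ∧
      dist w z = (1 - l) * dist x z} := measureReal_nonneg
    gcongr
  · intro z hz
    have hzR : dist x z ≤ R := by
      have := hBR hz.1
      rwa [mem_closedBall, dist_comm] at this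
    exact seg_pointwise h1 g2 H hu.1 D1 hh hz.2 hlam hlam1 hzR (hU z hz.2)

end Vale.Agent.P210.R2.H999
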