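import Mathlib.MeasureTheory.Function.Jacobian
import Vale.Agent.P210.R2.H934.Vol

/-!
# Existence of the Riemannian measure
-/

open scoped Manifold ContDiff Topology Bundle ENNReal NNReal
open Set Metric Filter Bundle IsManifold MeasureTheory Manifold

set_option maxSynthPendingDepth 3
set_option linter.unusedSectionVars false

noncomputable section

namespace Vale.Agent.P210.R2.H999

open Vale.Agent.P210.R2.H53 Vale.Agent.P210.R2.H934

section Flat

variable {E : Type} [NormedAddCommGroup E] [NormedSpace ℝ E] [FiniteDimensional ℝ E]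

/-- change of the density under a linear map -/
theorem dens_change {G G' : E → E →L[ℝ] E →L[ℝ] ℝ} {z z' : E} {D : E →L[ℝ] E}
    (h : ∀ v w, G' z' (D v) (D w) = G z v w) : dens G z = |D.det| * dens G' z' := by
  set b := Module.finBasis ℝ E with hb
  set A := LinearMap.toMatrix b b (D : E →ₗ[ℝ] E) with hA
  have h1 : H934.gram G z = A.transpose * H934.gram G' z' * A := by
    ext i j
    have h2 : ∀ k, D (b k) = ∑ l, A l k • b l := by
      intro k
      have := b.sum_repr (D (b k))
      rw [← this]
      refine Finset.sum_congr rfl fun l _ => ?_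
      rw [hA, LinearMap.toMatrix_apply]
      rfl
    have h3 : H934.gram G z i j = G' z' (D (b i)) (D (b j)) := by rw [h]; rfl
    rw [h3, h2 i, h2 j]
    simp only [map_sum, map_smul, sum_apply, smul_apply, smul_eq_mul, Matrix.mul_apply,
      Matrix.transpose_apply, Finset.sum_mul, Finset.mul_sum, H934.gram, Matrix.of_apply]
    refine Finset.sum_congr rfl fun k _ => ?_
    refine Finset.sum_congr rfl fun l _ => ?_
    ring
  have h4 : A.det = D.det := by
    rw [hA, LinearMap.det_toMatrix]
  rw [dens_eq, dens_eq, h1, Matrix.det_mul, Matrix.det_mul, Matrix.det_transpose, h4]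
  have h5 : D.det * (H934.gram G' z').det * D.det = D.det ^ 2 * (H934.gram G' z').det := by ring
  rw [h5, Real.sqrt_mul (sq_nonneg _), Real.sqrt_sq_eq_abs]

end Flat

section

variable {E : Type} [NormedAddCommGroup E] [NormedSpace ℝ E] [FiniteDimensional ℝ E]
  [MeasurableSpace E] [BorelSpace E]
  {M : Type} [MetricSpace M] [ChartedSpace E M]
  [RiemannianBundle (fun x : M => TangentSpace 𝓘(ℝ, E) x)]
  [IsManifold 𝓘(ℝ, E) ∞ M]
  [IsContMDiffRiemannianBundle 𝓘(ℝ, E) ∞ E (fun x : M => TangentSpace 𝓘(ℝ, E) x)]
  [MeasurableSpace M] [BorelSpace M]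
  {e e' : OpenPartialHomeomorph M E}

/-- integral over `S` in the chart `e` -/
def chInt (e : OpenPartialHomeomorph M E) (S : Set M) (f : M → ℝ≥0∞) : ℝ≥0∞ :=
  ∫⁻ z in e.symm ⁻¹' S ∩ e.target, f (e.symm z) * ENNReal.ofReal (dens (chartG e) z)
    ∂(Module.finBasis ℝ E).addHaar

theorem measurableSet_chart (e : OpenPartialHomeomorph M E) {S : Set M} (hS : MeasurableSet S) :
    MeasurableSet (e.symm ⁻¹' S ∩ e.target) := by
  have h1 : MeasurableSet (e.target.domRestrict e.symm ⁻¹' S) :=
    (continuousOn_iff_continuous_domRestrict.1 e.continuousOn_symm).measurable hS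
  have h2 := e.open_target.measurableSet.subtype_image h1
  have h3 : e.symm ⁻¹' S ∩ e.target = Subtype.val '' (e.target.domRestrict e.symm ⁻¹' S) := by
    ext z
    constructor
    · rintro ⟨a, b⟩
      exact ⟨⟨z, b⟩, a, rfl⟩
    · rintro ⟨⟨y, hy⟩, a, rfl⟩
      exact ⟨a, hy⟩
  rw [h3]
  exact h2

/-- change of charts -/
theorem chInt_change (he : e ∈ maximalAtlas 𝓘(ℝ, E) ∞ M) (he' : e' ∈ maximalAtlas 𝓘(ℝ, E) ∞ M)
    {S : Set M} (hS : MeasurableSet S) (hSe : S ⊆ e.source) (hSe' : S ⊆ e'.source)
    (f : M → ℝ≥0∞) : chInt e S f = chInt e' S f := by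
  set τ : E → E := e' ∘ e.symm with hτ
  set s : Set E := e.symm ⁻¹' S ∩ e.target with hs
  have hsm : MeasurableSet s := measurableSet_chart e hS
  have himg : τ '' s = e'.symm ⁻¹' S ∩ e'.target := by
    ext y
    constructor
    · rintro ⟨z, ⟨hz1, hz2⟩, rfl⟩
      have h1 : e.symm z ∈ e'.source := hSe' hz1
      exact ⟨by simpa [hτ, e'.left_inv h1] using hz1, e'.map_source h1⟩
    · rintro ⟨hy1, hy2⟩
      have h1 : e'.symm y ∈ e.source := hSe hy1
      refine ⟨e (e'.symm y), ⟨?_, e.map_source h1⟩, ?_⟩
      · show e.symm (e (e'.symm y)) ∈ S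
        rw [e.left_inv h1]; exact hy1
      · show e' (e.symm (e (e'.symm y))) = y
        rw [e.left_inv h1, e'.right_inv hy2]
  have hinj : InjOn τ s := by
    intro z hz y hy hzy
    have h1 : e.symm z = e.symm y := e'.injOn (hSe' hz.1) (hSe' hy.1) hzy
    rw [← e.right_inv hz.2, ← e.right_inv hy.2, h1]
  have hder : ∀ z ∈ s, HasFDerivWithinAt τ (fderiv ℝ τ z) s z := by
    intro z hz
    have hzV : z ∈ (e.symm ≫ₕ e').source := by
      simp only [OpenPartialHomeomorph.trans_source, OpenPartialHomeomorph.symm_source, mem_inter_iff,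
        mem_preimage]
      exact ⟨hz.2, hSe' hz.1⟩
    exact (((transition_real he he').contDiffAt
      ((e.symm ≫ₕ e').open_source.mem_nhds hzV)).differentiableAt
        (by simp)).hasFDerivAt.hasFDerivWithinAt
  have key := lintegral_image_eq_lintegral_abs_det_fderiv_mul
    (Module.finBasis ℝ E).addHaar hsm hder hinj
    (fun y => f (e'.symm y) * ENNReal.ofReal (dens (chartG e') y))
  rw [himg] at key
  rw [chInt, chInt, key]
  refine setLIntegral_congr_fun hsm fun z hz => ?_
  have h1 : e.symm z ∈ e'.source := hSe' hz.1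
  have h2 : e'.symm (τ z) = e.symm z := e'.left_inv h1
  have h3 : dens (chartG e) z = |(fderiv ℝ τ z).det| * dens (chartG e') (τ z) := by
    refine dens_change fun v w => ?_
    have := chartG_change he he' (x := e.symm z) (e.map_target hz.2) h1 v w
    rwa [e.right_inv hz.2] at this
  rw [h2, h3, ENNReal.ofReal_mul (abs_nonneg _)]
  ring

/-- the Riemannian measure in the chart -/
def mch (e : OpenPartialHomeomorph M E) : Measure M := (nu e).map e.symm

theorem lintegral_mch (he : e ∈ maximalAtlas 𝓘(ℝ, E) ∞ M) {S : Set M} (hS : MeasurableSet S)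
    {f : M → ℝ≥0∞} (hf : Measurable f) : ∫⁻ p in S, f p ∂(mch e) = chInt e S f := by
  have hm : AEMeasurable e.symm (nu e) := (aemeasurable_symm e).mono_ac (nu_ac e)
  rw [← lintegral_indicator hS, mch, lintegral_map' (hf.indicator hS).aemeasurable hm, nu,
    lintegral_withDensity_eq_lintegral_mul₀' (aemeasurable_dens he), rho, chInt]
  · rw [← lintegral_indicator e.open_target.measurableSet,
      ← lintegral_indicator (measurableSet_chart e hS)]
    congr 1
    funext z
    by_cases h1 : z ∈ e.target
    · by_cases h2 : e.symm z ∈ S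
      · rw [indicator_of_mem h1, indicator_of_mem (show z ∈ e.symm ⁻¹' S ∩ e.target from ⟨h2, h1⟩),
          Pi.mul_apply, indicator_of_mem h2, mul_comm]
      · rw [indicator_of_mem h1, indicator_of_notMem (fun h => h2 h.1), Pi.mul_apply,
          indicator_of_notMem h2, mul_zero]
    · rw [indicator_of_notMem h1, indicator_of_notMem (fun h => h1 h.2)]
  · refine (hf.indicator hS).comp_aemeasurable ?_
    exact (aemeasurable_symm e).mono_ac (withDensity_absolutelyContinuous _ _)

end

section

variable {E : Type} [NormedAddCommGroup E] [NormedSpace ℝ E] [FiniteDimensional ℝ E]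
  [MeasurableSpace E] [BorelSpace E]
  {M : Type} [MetricSpace M] [ChartedSpace E M]
  [RiemannianBundle (fun x : M => TangentSpace 𝓘(ℝ, E) x)]
  [IsManifold 𝓘(ℝ, E) ∞ M]
  [IsContMDiffRiemannianBundle 𝓘(ℝ, E) ∞ E (fun x : M => TangentSpace 𝓘(ℝ, E) x)]
  [MeasurableSpace M] [BorelSpace M]

theorem exists_isVol [ProperSpace M] : ∃ μ : Measure M, IsVol E μ := by
  rcases isEmpty_or_nonempty M with hM | hM
  · refine ⟨0, fun e he f hf hf0 => ?_⟩
    have : e.target = ∅ := by
      ext z
      simp only [mem_empty_iff_false, iff_false]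
      exact fun hz => hM.false (e.symm z)
    simp [this]
  obtain ⟨s, hs, hsU⟩ := TopologicalSpace.countable_cover_nhds
    (f := fun x : M => (chartAt E x).source) (fun x => (chartAt E x).open_source.mem_nhds
      (mem_chart_source E x))
  have hsne : s.Nonempty := by
    by_contra h
    rw [not_nonempty_iff_eq_empty] at h
    rw [h] at hsU
    simp at hsU
    exact hM.elim fun x => by
      have := hsU.symm ▸ mem_univ x
      exact this
  obtain ⟨a, ha⟩ := hs.exists_eq_range hsne
  set c : ℕ → OpenPartialHomeomorph M E := fun n => chartAt E (a n) with hc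
  have hcA : ∀ n, c n ∈ maximalAtlas 𝓘(ℝ, E) ∞ M := fun n => chart_mem_maximalAtlas _
  have hcU : ⋃ n, (c n).source = univ := by
    rw [← hsU, ha]
    simp [hc]
  set P : ℕ → Set M := disjointed fun n => (c n).source with hP
  have hPm : ∀ n, MeasurableSet (P n) := fun n =>
    MeasurableSet.disjointed (fun n => (c n).open_source.measurableSet) n
  have hPs : ∀ n, P n ⊆ (c n).source := fun n => disjointed_subset _ n
  have hPU : ⋃ n, P n = univ := by rw [hP, iUnion_disjointed, hcU]
  have hPd : Pairwise (Function.onFun Disjoint P) := disjoint_disjointed _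
  refine ⟨Measure.sum fun n => (mch (c n)).restrict (P n), fun e he f hf hf0 => ?_⟩
  rw [lintegral_sum_measure]
  have h1 : ∀ n, ∫⁻ p in P n, f p ∂(mch (c n)) = chInt e (P n ∩ e.source) f := by
    intro n
    have h2 : ∫⁻ p in P n, f p ∂(mch (c n)) = ∫⁻ p in P n ∩ e.source, f p ∂(mch (c n)) := by
      rw [← lintegral_indicator (hPm n),
        ← lintegral_indicator ((hPm n).inter e.open_source.measurableSet)]
      congr 1
      funext p
      by_cases hp : p ∈ e.source
      · by_cases hp' : p ∈ P n
        · rw [indicator_of_mem hp', indicator_of_mem (show p ∈ P n ∩ e.source from ⟨hp', hp⟩)]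
        · rw [indicator_of_notMem hp', indicator_of_notMem (fun h => hp' h.1)]
      · rw [indicator_of_notMem (fun h : p ∈ P n ∩ e.source => hp h.2)]
        by_cases hp' : p ∈ P n
        · rw [indicator_of_mem hp', hf0 p hp]
        · rw [indicator_of_notMem hp']
    have hm : MeasurableSet (P n ∩ e.source) := (hPm n).inter e.open_source.measurableSet
    rw [h2, lintegral_mch (hcA n) hm hf]
    exact chInt_change (hcA n) he hm (inter_subset_left.trans (hPs n)) inter_subset_right f
  simp only [h1, chInt]
  rw [← lintegral_iUnion]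
  · congr 2
    ext z
    constructor
    · intro h
      obtain ⟨n, hn⟩ := mem_iUnion.1 h
      exact hn.2
    · intro hz
      have : e.symm z ∈ ⋃ n, P n := by rw [hPU]; trivial
      obtain ⟨n, hn⟩ := mem_iUnion.1 this
      exact mem_iUnion.2 ⟨n, ⟨hn, e.map_target hz⟩, hz⟩
  · exact fun n => measurableSet_chart e ((hPm n).inter e.open_source.measurableSet)
  · intro i j hij
    refine Set.disjoint_left.2 fun z hz hz' => ?_
    exact Set.disjoint_left.1 (hPd hij) hz.1.1 hz'.1.1

end

theorem vol : Stmt.VOL := by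
  intro E _ _ _ _ _ M _ _ _ _ _ _ _ _ _ _
  exact exists_isVol

end Vale.Agent.P210.R2.H999
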